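import Mathlib

/-!
P061: definitions. A loopless multigraph on a finite type `V` is a symmetric multiplicity function
`m : V → V → ℕ` with `m v v = 0`.
-/

open Finset
open scoped BigOperators Classical

noncomputable section

namespace P061

universe u

variable {V : Type u} [Fintype V]

/-- The size of the multigraph cut `δ(S)`: edge copies with one end in `S`, the other outside. -/
def cutM (m : V → V → ℕ) (S : Finset V) : ℕ := ∑ u ∈ S, ∑ v ∈ Sᶜ, m u v

/-- The number of edges of the graph `T` with exactly one end in `S`. -/
def crossT (T : SimpleGraph V) (S : Finset V) : ℕ :=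
  ((S ×ˢ Sᶜ).filter (fun p => T.Adj p.1 p.2)).card

/-- `k`-edge-connected. -/
def KConn (m : V → V → ℕ) (k : ℕ) : Prop :=
  ∀ S : Finset V, S.Nonempty → Sᶜ.Nonempty → k ≤ cutM m S

/-- The partial order on `V` is an elimination forest of height at most `h` for `m`: the elements
below any vertex form a chain with at most `h` elements, and any two adjacent vertices are
comparable. This is the standard definition of tree-depth at most `h`. -/
structure ElimForest [PartialOrder V] (m : V → V → ℕ) (h : ℕ) : Prop where
  chain : ∀ v a b : V, a ≤ v → b ≤ v → a ≤ b ∨ b ≤ a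
  height : ∀ v : V, (univ.filter (fun a => a ≤ v)).card ≤ h
  comp : ∀ u v : V, 0 < m u v → u ≤ v ∨ v ≤ u

/-- The recursion for the constant. -/
def thinC : ℕ → ℕ
  | 0 => 0
  | (h + 1) => h ^ 2 + (1 + 2 * h) * thinC h

end P061
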