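import Vale.Agent.Lib.P061.Step

open Finset
open scoped BigOperators Classical

noncomputable section

namespace P061

universe u

/-- The induction on the height of the forest. -/
theorem thin_connected (k : ℕ) (hk : 0 < k) (h : ℕ) :
    ∀ (V : Type u) [Fintype V] [Nonempty V] [PartialOrder V] (m : V → V → ℕ),
      (∀ u v, m u v = m v u) → (∀ v, m v v = 0) → KConn m k → ElimForest m h →
      ∃ T : SimpleGraph V, T.Connected ∧ (∀ u v, T.Adj u v → 0 < m u v) ∧
        ∀ S : Finset V, k * crossT T S ≤ thinC h * cutM m S := by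
  induction h with
  | zero =>
    intro V _ _ _ m _ _ _ hE
    exfalso
    obtain ⟨v⟩ := ‹Nonempty V›
    have h1 := hE.height v
    have h2 : v ∈ univ.filter (fun a => a ≤ v) := by simp
    have h3 : 0 < (univ.filter (fun a => a ≤ v)).card := Finset.card_pos.2 ⟨v, h2⟩
    omega
  | succ h IH =>
    intro V _ _ _ m hsym hdiag hkc hE
    exact thin_step m hsym hdiag hk hkc hE IH

/-- A spanning tree version. -/
theorem thin_tree {V : Type u} [Fintype V] [Nonempty V] [PartialOrder V] (m : V → V → ℕ)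
    (hsym : ∀ u v, m u v = m v u) (hdiag : ∀ v, m v v = 0) {k h : ℕ} (hk : 0 < k)
    (hkc : KConn m k) (hE : ElimForest m h) :
    ∃ T : SimpleGraph V, T.IsTree ∧ (∀ u v, T.Adj u v → 0 < m u v) ∧
      ∀ S : Finset V, k * crossT T S ≤ thinC h * cutM m S := by
  obtain ⟨T, hT, hpos, hth⟩ := thin_connected k hk h V m hsym hdiag hkc hE
  obtain ⟨T0, hT0, hT0t⟩ := hT.exists_isTree_le
  refine ⟨T0, hT0t, fun u v huv => hpos u v (hT0 huv), fun S => ?_⟩
  exact (Nat.mul_le_mul_left _ (crossT_mono hT0 S)).trans (hth S)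

end P061
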