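import Vale.Agent.Lib.P061.Defs

open Finset
open scoped BigOperators Classical

noncomputable section

namespace P061

universe u

variable {V : Type u} [Fintype V]

lemma cutM_eq_ite (m : V → V → ℕ) (S : Finset V) :
    cutM m S = ∑ x, ∑ y, if x ∈ S ∧ y ∉ S then m x y else 0 := by
  unfold cutM
  have h1 : ∀ x, (∑ y, if x ∈ S ∧ y ∉ S then m x y else 0) =
      if x ∈ S then ∑ y ∈ Sᶜ, m x y else 0 := by
    intro x
    by_cases hx : x ∈ S
    · simp only [hx, true_and, if_true]
      rw [← Finset.sum_filter]
      congr 1
      ext y
      simp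
    · simp [hx]
  simp_rw [h1]
  rw [Finset.sum_ite_mem]
  simp

lemma crossT_mono {T T0 : SimpleGraph V} (h : T0 ≤ T) (S : Finset V) : crossT T0 S ≤ crossT T S := by
  unfold crossT
  refine Finset.card_le_card fun p hp => ?_
  simp only [Finset.mem_filter] at hp ⊢
  exact ⟨hp.1, h hp.2⟩

lemma lift_congr {W V' : Type*} {A : W → W → Prop} {a b a' b' : W} (e1 : a = a') (e2 : b = b')
    (lf : ∀ a b, A a b → V') (h : A a b) (h' : A a' b') : lf a b h = lf a' b' h' := by
  subst e1; subst e2; rfl

/-- The inductive step. -/
theorem thin_step [Nonempty V] [PartialOrder V] (m : V → V → ℕ) (hsym : ∀ u v, m u v = m v u)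
    (hdiag : ∀ v, m v v = 0) {k h : ℕ} (hk : 0 < k) (hkc : KConn m k) (hE : ElimForest m (h + 1))
    (IH : ∀ (W : Type u) [Fintype W] [Nonempty W] [PartialOrder W] (m' : W → W → ℕ),
      (∀ u v, m' u v = m' v u) → (∀ v, m' v v = 0) → KConn m' k → ElimForest m' h →
      ∃ T : SimpleGraph W, T.Connected ∧ (∀ u v, T.Adj u v → 0 < m' u v) ∧
        ∀ S : Finset W, k * crossT T S ≤ thinC h * cutM m' S) :
    ∃ T : SimpleGraph V, T.Connected ∧ (∀ u v, T.Adj u v → 0 < m u v) ∧
      ∀ S : Finset V, k * crossT T S ≤ thinC (h + 1) * cutM m S := by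
  by_cases hsub : Subsingleton V
  · refine ⟨⊥, ⟨fun u v => by rw [Subsingleton.elim u v]⟩, fun u v huv => by simp at huv, fun S => ?_⟩
    have : crossT (⊥ : SimpleGraph V) S = 0 := by
      unfold crossT
      simp
    rw [this]
    simp
  rw [not_subsingleton_iff_nontrivial] at hsub
  -- the degree
  set deg : V → ℕ := fun v => ∑ y, m v y with hdeg
  have hdegk : ∀ v, k ≤ deg v := by
    intro v
    obtain ⟨w, hw⟩ := exists_ne v
    have h1 := hkc {v} (by simp) ⟨w, by simp [hw]⟩
    refine h1.trans ?_
    unfold cutM
    simp only [Finset.sum_singleton]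
    exact Finset.sum_le_sum_of_subset (Finset.subset_univ _)
  -- neighbours
  have hnbr : ∀ v y, IsMax v → 0 < m v y → y < v := by
    intro v y hv hm
    have hne : y ≠ v := by
      rintro rfl
      rw [hdiag] at hm
      exact lt_irrefl _ hm
    rcases hE.comp v y hm with h1 | h1
    · exact lt_of_le_of_ne (hv h1) hne
    · exact lt_of_le_of_ne h1 hne
  have hcardN : ∀ v : V, (univ.filter (fun a : V => a < v)).card ≤ h := by
    intro v
    have h1 := hE.height v
    have h2 : (univ.filter (fun a : V => a < v)) = (univ.filter (fun a : V => a ≤ v)).erase v := by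
      ext a
      simp [lt_iff_le_and_ne, and_comm]
    rw [h2, Finset.card_erase_of_mem (by simp)]
    omega
  have hbest : ∀ v, IsMax v → ∃ b : {a : V // ¬ IsMax a}, (b : V) < v ∧ 0 < m v b ∧ deg v ≤ h * m v b := by
    intro v hv
    have hpos : 0 < deg v := hk.trans_le (hdegk v)
    obtain ⟨y0, -, hy0⟩ := Finset.exists_lt_of_sum_lt (s := univ) (f := fun _ => 0) (g := fun y => m v y)
      (by simpa [hdeg] using hpos)
    have hne : (univ.filter (fun a => a < v)).Nonempty := ⟨y0, by simpa using hnbr v y0 hv hy0⟩
    obtain ⟨b, hb, hbm⟩ := Finset.exists_max_image _ (fun y => m v y) hne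
    have hb' : b < v := by simpa using hb
    have hsum : deg v ≤ h * m v b := by
      have h1 : deg v = ∑ y ∈ univ.filter (fun a => a < v), m v y := by
        rw [Finset.sum_filter]
        refine Finset.sum_congr rfl fun y _ => ?_
        by_cases hy : y < v
        · simp [hy]
        · have : m v y = 0 := by
            by_contra h0
            exact hy (hnbr v y hv (Nat.pos_of_ne_zero h0))
          simp [hy, this]
      rw [h1]
      calc ∑ y ∈ univ.filter (fun a => a < v), m v y
          ≤ ∑ _y ∈ univ.filter (fun a => a < v), m v b := Finset.sum_le_sum hbm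
        _ = (univ.filter (fun a => a < v)).card * m v b := by simp
        _ ≤ h * m v b := Nat.mul_le_mul_right _ (hcardN v)
    have hbpos : 0 < m v b := by
      by_contra h0
      have : m v b = 0 := by omega
      rw [this] at hsum
      omega
    refine ⟨⟨b, ?_⟩, hb', hbpos, hsum⟩
    intro hmax
    exact absurd (hmax hb'.le) (not_le_of_gt hb')
  choose bf hbf1 hbf2 hbf3 using hbest
  -- the contraction map
  let W := {a : V // ¬ IsMax a}
  letI : DecidableEq W := fun a b => Classical.propDecidable (a = b)
  let π : V → W := fun v => if hv : IsMax v then bf v hv else ⟨v, hv⟩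
  have hπ_non : ∀ a : W, π a = a := by
    intro a
    simp only [π]
    rw [dif_neg a.2]
  have hπ_max : ∀ v (hv : IsMax v), π v = bf v hv := by
    intro v hv
    simp only [π]
    rw [dif_pos hv]
  have hπ_le : ∀ x, (π x : V) ≤ x := by
    intro x
    by_cases hx : IsMax x
    · rw [hπ_max x hx]; exact (hbf1 x hx).le
    · have : π x = ⟨x, hx⟩ := by simp only [π]; rw [dif_neg hx]
      rw [this]
  obtain ⟨v0⟩ := ‹Nonempty V›
  have hWne : Nonempty W := by
    by_cases hv0 : IsMax v0
    · exact ⟨bf v0 hv0⟩
    · exact ⟨⟨v0, hv0⟩⟩
  -- the contracted multigraph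
  let fib : W → Finset V := fun a => univ.filter (fun x => π x = a)
  let m' : W → W → ℕ := fun a b => if a = b then 0 else ∑ x ∈ fib a, ∑ y ∈ fib b, m x y
  have hm'sym : ∀ a b, m' a b = m' b a := by
    intro a b
    simp only [m']
    by_cases hab : a = b
    · subst hab; rfl
    · rw [if_neg hab, if_neg (Ne.symm hab), Finset.sum_comm]
      refine Finset.sum_congr rfl fun y _ => Finset.sum_congr rfl fun x _ => hsym _ _
  have hm'diag : ∀ a, m' a a = 0 := fun a => by simp [m']
  have hfibdisj : ∀ s : Finset W, (s : Set W).PairwiseDisjoint fib := by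
    intro s a _ b _ hab
    simp only [Function.onFun, fib]
    rw [Finset.disjoint_left]
    intro x hx hx'
    simp only [Finset.mem_filter, Finset.mem_univ, true_and] at hx hx'
    exact hab (hx.symm.trans hx')
  have hcut : ∀ S' : Finset W, cutM m' S' = cutM m (univ.filter (fun x => π x ∈ S')) := by
    intro S'
    have hP : univ.filter (fun x => π x ∈ S') = S'.biUnion fib := by
      ext x
      simp [fib]
    have hPc : (univ.filter (fun x => π x ∈ S'))ᶜ = S'ᶜ.biUnion fib := by
      ext x
      simp [fib]
    unfold cutM
    rw [hPc, hP, Finset.sum_biUnion (hfibdisj S')]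
    refine Finset.sum_congr rfl fun a ha => ?_
    have hinner : ∀ x, ∑ y ∈ S'ᶜ.biUnion fib, m x y = ∑ b ∈ S'ᶜ, ∑ y ∈ fib b, m x y :=
      fun x => Finset.sum_biUnion (hfibdisj S'ᶜ)
    simp_rw [hinner]
    rw [Finset.sum_comm]
    refine Finset.sum_congr rfl fun b hb => ?_
    have hab : a ≠ b := by
      rintro rfl
      exact (Finset.mem_compl.1 hb) ha
    simp only [m']
    rw [if_neg hab]
  have hm'conn : KConn m' k := by
    intro S' h1 h2
    rw [hcut]
    obtain ⟨a, ha⟩ := h1
    obtain ⟨b, hb⟩ := h2
    refine hkc _ ⟨(a : V), ?_⟩ ⟨(b : V), ?_⟩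
    · simp [hπ_non, ha]
    · have : (b : V) ∉ univ.filter (fun x => π x ∈ S') := by
        simp only [Finset.mem_filter, Finset.mem_univ, true_and, hπ_non]
        exact Finset.mem_compl.1 hb
      exact Finset.mem_compl.2 this
  have hm'elim : ElimForest m' h := by
    refine ⟨?_, ?_, ?_⟩
    · intro v a b ha hb
      exact hE.chain v a b ha hb
    · intro a
      have ha := a.2
      simp only [IsMax, not_forall] at ha
      obtain ⟨c, hac, hca⟩ := ha
      have hlt : (a : V) < c := lt_of_le_not_ge hac hca
      have h1 : (univ.filter (fun b : W => b ≤ a)).card ≤ (univ.filter (fun x : V => x < c)).card := by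
        refine Finset.card_le_card_of_injOn (fun b => (b : V)) ?_ ?_
        · intro b hb
          simp only [Finset.coe_filter, Finset.mem_univ, true_and, Set.mem_setOf_eq] at hb ⊢
          exact lt_of_le_of_lt hb hlt
        · intro b _ b' _ hbb
          exact Subtype.ext hbb
      exact h1.trans (hcardN c)
    · intro a b hab
      simp only [m'] at hab
      by_cases hne : a = b
      · subst hne; exact Or.inl le_rfl
      rw [if_neg hne] at hab
      obtain ⟨x, hx, hx'⟩ := Finset.exists_lt_of_sum_lt (s := fib a) (f := fun _ => 0)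
        (g := fun x => ∑ y ∈ fib b, m x y) (by simpa using hab)
      obtain ⟨y, hy, hy'⟩ := Finset.exists_lt_of_sum_lt (s := fib b) (f := fun _ => 0)
        (g := fun y => m x y) (by simpa using hx')
      have hxa : π x = a := by simpa [fib] using hx
      have hyb : π y = b := by simpa [fib] using hy
      have h1 := hπ_le x
      have h2 := hπ_le y
      rw [hxa] at h1
      rw [hyb] at h2
      rcases hE.comp x y hy' with hxy | hxy
      · exact hE.chain y a b (h1.trans hxy) h2
      · exact hE.chain x a b h1 (h2.trans hxy)
  obtain ⟨T', hT'c, hT'pos, hT'th⟩ := IH W m' hm'sym hm'diag hm'conn hm'elim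
  -- lifting
  have hl : ∀ a b, T'.Adj a b → ∃ p : V × V, π p.1 = a ∧ π p.2 = b ∧ 0 < m p.1 p.2 := by
    intro a b hab
    have hpos := hT'pos a b hab
    simp only [m'] at hpos
    have hne : a ≠ b := hab.ne
    rw [if_neg hne] at hpos
    obtain ⟨x, hx, hx'⟩ := Finset.exists_lt_of_sum_lt (s := fib a) (f := fun _ => 0)
      (g := fun x => ∑ y ∈ fib b, m x y) (by simpa using hpos)
    obtain ⟨y, hy, hy'⟩ := Finset.exists_lt_of_sum_lt (s := fib b) (f := fun _ => 0)
      (g := fun y => m x y) (by simpa using hx')
    exact ⟨(x, y), by simpa [fib] using hx, by simpa [fib] using hy, hy'⟩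
  choose lf hl1 hl2 hl3 using hl
  let ι : W → ℕ := fun a => (Fintype.equivFin W a).val
  have hι : Function.Injective ι := fun a b hab =>
    (Fintype.equivFin W).injective (Fin.ext hab)
  let r : V → V → Prop := fun u v => (IsMax u ∧ v = (π u : V)) ∨
    ∃ a b, ∃ hab : T'.Adj a b, ι a < ι b ∧ u = (lf a b hab).1 ∧ v = (lf a b hab).2
  let T : SimpleGraph V := SimpleGraph.fromRel r
  have hTadj : ∀ u v, T.Adj u v ↔ u ≠ v ∧ (r u v ∨ r v u) := fun u v => SimpleGraph.fromRel_adj r u v
  have hrpos : ∀ u v, r u v → 0 < m u v := by
    rintro u v (⟨hu, rfl⟩ | ⟨a, b, hab, -, rfl, rfl⟩)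
    · rw [hπ_max u hu]; exact hbf2 u hu
    · exact hl3 a b hab
  have hTpos : ∀ u v, T.Adj u v → 0 < m u v := by
    intro u v huv
    rcases ((hTadj u v).1 huv).2 with h1 | h1
    · exact hrpos _ _ h1
    · rw [hsym]; exact hrpos _ _ h1
  refine ⟨T, ?_, hTpos, ?_⟩
  · -- connected
    have s1 : ∀ v, T.Reachable v (π v : V) := by
      intro v
      by_cases hv : IsMax v
      · refine SimpleGraph.Adj.reachable ((hTadj _ _).2 ⟨?_, Or.inl (Or.inl ⟨hv, rfl⟩)⟩)
        rw [hπ_max v hv]
        exact (hbf1 v hv).ne'
      · have : π v = ⟨v, hv⟩ := by simp only [π]; rw [dif_neg hv]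
        rw [this]
    have s2a : ∀ a b, ∀ hab : T'.Adj a b, ι a < ι b → T.Reachable (a : V) (b : V) := by
      intro a b hab hlt
      have h1 := s1 (lf a b hab).1
      rw [hl1] at h1
      have h2 := s1 (lf a b hab).2
      rw [hl2] at h2
      have hne : (lf a b hab).1 ≠ (lf a b hab).2 := by
        intro he
        have := hl3 a b hab
        rw [he, hdiag] at this
        exact lt_irrefl _ this
      have h3 : T.Adj (lf a b hab).1 (lf a b hab).2 :=
        (hTadj _ _).2 ⟨hne, Or.inl (Or.inr ⟨a, b, hab, hlt, rfl, rfl⟩)⟩
      exact h1.symm.trans (h3.reachable.trans h2)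
    have s2 : ∀ a b, T'.Adj a b → T.Reachable (a : V) (b : V) := by
      intro a b hab
      rcases lt_trichotomy (ι a) (ι b) with h1 | h1 | h1
      · exact s2a a b hab h1
      · exact absurd (hι h1) hab.ne
      · exact (s2a b a hab.symm h1).symm
    have s3 : ∀ a b, T'.Reachable a b → T.Reachable (a : V) (b : V) := by
      rintro a b ⟨p⟩
      induction p with
      | nil => exact SimpleGraph.Reachable.refl _
      | cons h _ ih => exact (s2 _ _ h).trans ih
    refine ⟨fun u v => ?_⟩
    exact (s1 u).trans ((s3 _ _ (hT'c.preconnected (π u) (π v))).trans (s1 v).symm)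
  · -- thinness
    intro S
    set S' : Finset W := univ.filter (fun a => (a : V) ∈ S) with hS'
    set F : Finset V := univ.filter (fun v => IsMax v ∧
      ((v ∈ S ∧ (π v : V) ∉ S) ∨ (v ∉ S ∧ (π v : V) ∈ S))) with hF
    have hF1 : ∀ x, x ∉ F → (x ∈ S ↔ (π x : V) ∈ S) := by
      intro x hx
      by_cases hxm : IsMax x
      · simp only [hF, Finset.mem_filter, Finset.mem_univ, true_and, not_and, not_or] at hx
        have := hx hxm
        by_cases h1 : x ∈ S
        · have h2 := this.1
          simp only [h1, true_and, not_not] at h2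
          simp [h1, h2]
        · have h2 := this.2
          simp only [h1, not_false_eq_true, true_and] at h2
          simp [h1, h2]
      · have : π x = ⟨x, hxm⟩ := by simp only [π]; rw [dif_neg hxm]
        rw [this]
    have hFmax : ∀ v ∈ F, IsMax v := by
      intro v hv
      simp only [hF, Finset.mem_filter] at hv
      exact hv.2.1
    -- Claim A
    have hA : ∑ v ∈ F, m v (π v) ≤ cutM m S := by
      have hc : cutM m S = ∑ p ∈ S ×ˢ Sᶜ, m p.1 p.2 := by
        unfold cutM
        rw [Finset.sum_product]
      rw [hc]
      let g : V → V × V := fun v => if v ∈ S then (v, (π v : V)) else ((π v : V), v)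
      have hg : ∀ v ∈ F, m v (π v) = m (g v).1 (g v).2 := by
        intro v _
        by_cases h1 : v ∈ S
        · simp [g, h1]
        · simp only [g, h1, if_false]
          exact hsym _ _
      rw [Finset.sum_congr rfl hg]
      have hinj : Set.InjOn g F := by
        intro v hv w hw hvw
        have hv' := hFmax v hv
        have hw' := hFmax w hw
        by_cases h1 : v ∈ S <;> by_cases h2 : w ∈ S
        · simpa [g, h1, h2] using congrArg Prod.fst hvw
        · have e : v = (π w : V) := by simpa [g, h1, h2] using congrArg Prod.fst hvw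
          exact absurd hv' (by rw [e]; exact (π w).2)
        · have e : (π v : V) = w := by simpa [g, h1, h2] using congrArg Prod.fst hvw
          exact absurd hw' (by rw [← e]; exact (π v).2)
        · simpa [g, h1, h2] using congrArg Prod.snd hvw
      have e2 : ∑ v ∈ F, m (g v).1 (g v).2 = ∑ p ∈ F.image g, m p.1 p.2 :=
        (Finset.sum_image (f := fun p : V × V => m p.1 p.2) hinj).symm
      rw [e2]
      refine Finset.sum_le_sum_of_subset fun p hp => ?_
      obtain ⟨v, hv, rfl⟩ := Finset.mem_image.1 hp
      simp only [hF, Finset.mem_filter, Finset.mem_univ, true_and] at hv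
      rcases hv.2 with ⟨h1, h2⟩ | ⟨h1, h2⟩
      · simp [g, h1, h2]
      · simp [g, h1, h2]
    -- Claim B
    have hdegF : ∀ v ∈ F, deg v ≤ h * m v (π v) := by
      intro v hv
      have := hbf3 v (hFmax v hv)
      rwa [← hπ_max v (hFmax v hv)] at this
    have hB : k * F.card ≤ h * cutM m S := by
      calc k * F.card = ∑ _v ∈ F, k := by simp [mul_comm]
        _ ≤ ∑ v ∈ F, h * m v (π v) := Finset.sum_le_sum fun v hv => (hdegk v).trans (hdegF v hv)
        _ = h * ∑ v ∈ F, m v (π v) := by rw [Finset.mul_sum]
        _ ≤ h * cutM m S := Nat.mul_le_mul_left _ hA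
    have hDeg : ∑ v ∈ F, deg v ≤ h * cutM m S := by
      calc ∑ v ∈ F, deg v ≤ ∑ v ∈ F, h * m v (π v) := Finset.sum_le_sum hdegF
        _ = h * ∑ v ∈ F, m v (π v) := by rw [Finset.mul_sum]
        _ ≤ h * cutM m S := Nat.mul_le_mul_left _ hA
    -- Claim C
    have hC : cutM m' S' ≤ (1 + 2 * h) * cutM m S := by
      rw [hcut, cutM_eq_ite]
      set P : Finset V := univ.filter (fun x => π x ∈ S') with hP
      have hPmem : ∀ x, x ∈ P ↔ (π x : V) ∈ S := by
        intro x
        simp [hP, hS']
      have hpt : ∀ x y, (if x ∈ P ∧ y ∉ P then m x y else 0) ≤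
          (if x ∈ S ∧ y ∉ S then m x y else 0) + (if x ∈ F then m x y else 0) +
            (if y ∈ F then m x y else 0) := by
        intro x y
        by_cases hxy : x ∈ P ∧ y ∉ P
        · rw [if_pos hxy]
          by_cases hx : x ∈ F
          · simp [hx]; omega
          by_cases hy : y ∈ F
          · simp [hy]
          have hx1 := hF1 x hx
          have hy1 := hF1 y hy
          have h1 : x ∈ S := hx1.2 ((hPmem x).1 hxy.1)
          have h2 : y ∉ S := fun hh => hxy.2 ((hPmem y).2 (hy1.1 hh))
          rw [if_pos ⟨h1, h2⟩]
          omega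
        · rw [if_neg hxy]
          exact Nat.zero_le _
      have hsum : (∑ x, ∑ y, if x ∈ P ∧ y ∉ P then m x y else 0) ≤
          cutM m S + ∑ v ∈ F, deg v + ∑ v ∈ F, deg v := by
        rw [cutM_eq_ite m S]
        have e1 : (∑ x, ∑ y, if x ∈ F then m x y else 0) = ∑ v ∈ F, deg v := by
          have : ∀ x, (∑ y, if x ∈ F then m x y else 0) = if x ∈ F then deg x else 0 := by
            intro x
            by_cases hx : x ∈ F <;> simp [hx, hdeg]
          simp_rw [this]
          rw [Finset.sum_ite_mem]
          simp
        have e2 : (∑ x, ∑ y, if y ∈ F then m x y else 0) = ∑ v ∈ F, deg v := by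
          rw [Finset.sum_comm]
          have : ∀ y, (∑ x, if y ∈ F then m x y else 0) = if y ∈ F then deg y else 0 := by
            intro y
            by_cases hy : y ∈ F
            · simp only [hy, if_true, hdeg]
              exact Finset.sum_congr rfl fun x _ => hsym _ _
            · simp [hy]
          simp_rw [this]
          rw [Finset.sum_ite_mem]
          simp
        rw [← e1]
        nth_rewrite 2 [e1]
        rw [← e2]
        simp_rw [← Finset.sum_add_distrib]
        exact Finset.sum_le_sum fun x _ => Finset.sum_le_sum fun y _ => hpt x y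
      calc _ ≤ cutM m S + ∑ v ∈ F, deg v + ∑ v ∈ F, deg v := hsum
        _ ≤ cutM m S + h * cutM m S + h * cutM m S := by gcongr
        _ = (1 + 2 * h) * cutM m S := by ring
    -- Claim D
    have hD : crossT T S ≤ h * F.card + crossT T' S' := by
      have e0 : crossT T S = ((S ×ˢ Sᶜ).filter (fun p => T.Adj p.1 p.2)).card := by
        unfold crossT
        congr
      have e0' : crossT T' S' = ((S' ×ˢ S'ᶜ).filter (fun p => T'.Adj p.1 p.2)).card := by
        unfold crossT
        congr
      rw [e0, e0']
      set X := (S ×ˢ Sᶜ).filter (fun p => T.Adj p.1 p.2) with hX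
      set XF := X.filter (fun p => p.1 ∈ F ∨ p.2 ∈ F) with hXF
      set XN := X.filter (fun p => ¬ (p.1 ∈ F ∨ p.2 ∈ F)) with hXN
      have hsplit : X.card = XF.card + XN.card := (Finset.card_filter_add_card_filter_not _).symm
      have hXmem : ∀ p ∈ X, p.1 ∈ S ∧ p.2 ∉ S ∧ T.Adj p.1 p.2 := by
        intro p hp
        simp only [hX, Finset.mem_filter, Finset.mem_product, Finset.mem_compl] at hp
        exact ⟨hp.1.1, hp.1.2, hp.2⟩
      have h1 : XF.card ≤ h * F.card := by
        have hsub : XF ⊆ F.biUnion (fun w => XF.filter (fun p => p.1 = w ∨ p.2 = w)) := by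
          intro p hp
          have hp' := hp
          simp only [hXF, Finset.mem_filter] at hp'
          rcases hp'.2 with h2 | h2
          · exact Finset.mem_biUnion.2 ⟨p.1, h2, Finset.mem_filter.2 ⟨hp, Or.inl rfl⟩⟩
          · exact Finset.mem_biUnion.2 ⟨p.2, h2, Finset.mem_filter.2 ⟨hp, Or.inr rfl⟩⟩
        have hcard : ∀ w ∈ F, (XF.filter (fun p => p.1 = w ∨ p.2 = w)).card ≤ h := by
          intro w hw
          refine le_trans ?_ (hcardN w)
          refine Finset.card_le_card_of_injOn (fun p => if w ∈ S then p.2 else p.1) ?_ ?_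
          · intro p hp
            have hp1 : p ∈ X := by
              simp only [hXF, Finset.coe_filter, Finset.mem_filter, Set.mem_setOf_eq] at hp
              exact hp.1.1
            have hp2 : p.1 = w ∨ p.2 = w := by
              simp only [Finset.coe_filter, Set.mem_setOf_eq] at hp
              exact hp.2
            obtain ⟨h3, h4, h5⟩ := hXmem p hp1
            have hwm := hFmax w hw
            simp only [Finset.coe_filter, Finset.mem_univ, true_and, Set.mem_setOf_eq]
            by_cases hwS : w ∈ S
            · rw [if_pos hwS]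
              have e : p.1 = w := by
                rcases hp2 with e | e
                · exact e
                · exact absurd (e ▸ hwS) h4
              apply hnbr w p.2 hwm
              rw [← e]
              exact hTpos _ _ h5
            · rw [if_neg hwS]
              have e : p.2 = w := by
                rcases hp2 with e | e
                · exact absurd (e ▸ h3) hwS
                · exact e
              apply hnbr w p.1 hwm
              rw [← e, hsym]
              exact hTpos _ _ h5
          · intro p hp q hq hpq
            simp only [Finset.coe_filter, Set.mem_setOf_eq] at hp hq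
            have hp1 : p ∈ X := by
              simp only [hXF, Finset.mem_filter] at hp
              exact hp.1.1
            have hq1 : q ∈ X := by
              simp only [hXF, Finset.mem_filter] at hq
              exact hq.1.1
            obtain ⟨h3, h4, -⟩ := hXmem p hp1
            obtain ⟨h3', h4', -⟩ := hXmem q hq1
            by_cases hwS : w ∈ S
            · simp only [hwS, if_true] at hpq
              have e1 : p.1 = w := by
                rcases hp.2 with e | e
                · exact e
                · exact absurd (e ▸ hwS) h4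
              have e2 : q.1 = w := by
                rcases hq.2 with e | e
                · exact e
                · exact absurd (e ▸ hwS) h4'
              exact Prod.ext (e1.trans e2.symm) hpq
            · simp only [hwS, if_false] at hpq
              have e1 : p.2 = w := by
                rcases hp.2 with e | e
                · exact absurd (e ▸ h3) hwS
                · exact e
              have e2 : q.2 = w := by
                rcases hq.2 with e | e
                · exact absurd (e ▸ h3') hwS
                · exact e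
              exact Prod.ext hpq (e1.trans e2.symm)
        calc XF.card ≤ (F.biUnion (fun w => XF.filter (fun p => p.1 = w ∨ p.2 = w))).card :=
              Finset.card_le_card hsub
          _ ≤ ∑ w ∈ F, (XF.filter (fun p => p.1 = w ∨ p.2 = w)).card := Finset.card_biUnion_le
          _ ≤ ∑ _w ∈ F, h := Finset.sum_le_sum hcard
          _ = h * F.card := by simp [mul_comm]
      have hdesc : ∀ p ∈ XN,
          (∃ hab : T'.Adj (π p.1) (π p.2), ι (π p.1) < ι (π p.2) ∧
            p.1 = (lf _ _ hab).1 ∧ p.2 = (lf _ _ hab).2) ∨
          (∃ hab : T'.Adj (π p.2) (π p.1), ι (π p.2) < ι (π p.1) ∧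
            p.2 = (lf _ _ hab).1 ∧ p.1 = (lf _ _ hab).2) := by
        intro p hp
        have hp' := hp
        simp only [hXN, Finset.mem_filter, not_or] at hp'
        obtain ⟨h3, h4, h5⟩ := hXmem p hp'.1
        have hn1 := hF1 _ hp'.2.1
        have hn2 := hF1 _ hp'.2.2
        rcases ((hTadj _ _).1 h5).2 with hr | hr
        · rcases hr with ⟨hm, he⟩ | ⟨a, b, hab, hlt, e1, e2⟩
          · exact absurd (he ▸ hn1.1 h3) h4
          · left
            have ea : π p.1 = a := by rw [e1]; exact hl1 a b hab
            have eb : π p.2 = b := by rw [e2]; exact hl2 a b hab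
            rw [ea, eb]
            exact ⟨hab, hlt, e1, e2⟩
        · rcases hr with ⟨hm, he⟩ | ⟨a, b, hab, hlt, e1, e2⟩
          · exact absurd (he ▸ h3) (fun hh => h4 (hn2.2 hh))
          · right
            have ea : π p.2 = a := by rw [e1]; exact hl1 a b hab
            have eb : π p.1 = b := by rw [e2]; exact hl2 a b hab
            rw [ea, eb]
            exact ⟨hab, hlt, e1, e2⟩
      have h2 : XN.card ≤ ((S' ×ˢ S'ᶜ).filter (fun p => T'.Adj p.1 p.2)).card := by
        refine Finset.card_le_card_of_injOn (fun p => (π p.1, π p.2)) ?_ ?_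
        · intro p hp
          have hp' := hp
          simp only [hXN, Finset.coe_filter, Set.mem_setOf_eq, Finset.mem_filter, not_or] at hp'
          obtain ⟨h3, h4, h5⟩ := hXmem p hp'.1
          have hn1 := hF1 _ hp'.2.1
          have hn2 := hF1 _ hp'.2.2
          simp only [Finset.coe_filter, Finset.mem_product, Finset.mem_compl, Set.mem_setOf_eq]
          refine ⟨⟨?_, ?_⟩, ?_⟩
          · simp only [hS', Finset.mem_filter, Finset.mem_univ, true_and]
            exact hn1.1 h3
          · simp only [hS', Finset.mem_filter, Finset.mem_univ, true_and]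
            exact fun hh => h4 (hn2.2 hh)
          · rcases hdesc p hp with ⟨hab, -⟩ | ⟨hab, -⟩
            · exact hab
            · exact hab.symm
        · intro p hp q hq hpq
          have e1 : π p.1 = π q.1 := congrArg Prod.fst hpq
          have e2 : π p.2 = π q.2 := congrArg Prod.snd hpq
          rcases hdesc p hp with ⟨hab, hlt, h5, h6⟩ | ⟨hab, hlt, h5, h6⟩ <;>
            rcases hdesc q hq with ⟨hab', hlt', h5', h6'⟩ | ⟨hab', hlt', h5', h6'⟩
          · refine Prod.ext ?_ ?_
            · rw [h5, h5']
              congr 1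
              exact lift_congr e1 e2 lf hab hab'
            · rw [h6, h6']
              congr 1
              exact lift_congr e1 e2 lf hab hab'
          · rw [e1, e2] at hlt
            exact absurd hlt (by omega)
          · rw [e1, e2] at hlt
            exact absurd hlt (by omega)
          · refine Prod.ext ?_ ?_
            · rw [h6, h6']
              congr 1
              exact lift_congr e2 e1 lf hab hab'
            · rw [h5, h5']
              congr 1
              exact lift_congr e2 e1 lf hab hab'
      rw [hsplit]
      omega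
    -- final
    have hth := hT'th S'
    simp only [thinC]
    calc k * crossT T S ≤ k * (h * F.card + crossT T' S') := Nat.mul_le_mul_left _ hD
      _ = h * (k * F.card) + k * crossT T' S' := by ring
      _ ≤ h * (h * cutM m S) + thinC h * cutM m' S' := by
          gcongr
      _ ≤ h * (h * cutM m S) + thinC h * ((1 + 2 * h) * cutM m S) := by
          gcongr
      _ = (h ^ 2 + (1 + 2 * h) * thinC h) * cutM m S := by ring

end P061
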